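import Vale.Agent.P171.Bridge

/-!
# P171: a stable tempered radial pair potential with a phase transition.
-/

open Vale.Agent.P171

/-- There is a radial pair potential on `ℝ³`, Borel measurable and locally bounded on `(0,∞)`,
stable and tempered, such that for inverse temperature `β = 1` the pressure `z ↦ Π(1,z)` exists for
all activities `z > 0` and is not differentiable at some `z₀ > 0`. -/
theorem Vale.Agent.Results.P171.Kink.result :
    ∃ φ : ℝ → ℝ, Measurable φ ∧ IsLocallyBoundedOnPos φ ∧ IsStable φ ∧ IsTempered φ ∧
      HasPressureKink φ :=
  exists_potential_with_kink
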